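import Mathlib

/-!
Choice along a tree, and the assignment of finitely many slots to the alive labels of the nodes
of a tree: a label which stays alive keeps its slot.
-/

namespace Vale.Agent.P235.H991

open Finset

section Rec

variable {T σ : Type*}

/-- Dependent choice along a tree given by a parent map and a rank. -/
theorem tree_rec (par : T → T) (rk : T → ℕ) (root : T → Prop)
    (hrk : ∀ t, ¬ root t → rk (par t) < rk t)
    (Inv : T → σ → Prop) (Rel : T → σ → σ → Prop)
    (h0 : ∀ t, root t → ∃ s, Inv t s)
    (h1 : ∀ t, ¬ root t → ∀ s, Inv (par t) s → ∃ s', Inv t s' ∧ Rel t s s') :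
    ∃ F : T → σ, (∀ t, Inv t (F t)) ∧ ∀ t, ¬ root t → Rel t (F (par t)) (F t) := by
  classical
  rcases isEmpty_or_nonempty T with hT | ⟨⟨t0⟩⟩
  · exact ⟨fun t => (hT.false t).elim, fun t => (hT.false t).elim, fun t => (hT.false t).elim⟩
  -- `σ` is nonempty: some node is a root
  have hroot : ∃ t, root t := by
    by_contra hno
    have hno : ∀ t, ¬ root t := fun t ht => hno ⟨t, ht⟩
    have : ∀ N t, rk t ≤ N → False := by
      intro N
      induction N with
      | zero =>
        intro t ht
        have := hrk t (hno t)
        omega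
      | succ N ih =>
        intro t ht
        have := hrk t (hno t)
        exact ih (par t) (by omega)
    exact this (rk t0) t0 le_rfl
  obtain ⟨tr, htr⟩ := hroot
  obtain ⟨s0, _⟩ := h0 tr htr
  let step : (t : T) → ((y : T) → rk y < rk t → σ) → σ := fun t rec =>
    if h : root t then Classical.choose (h0 t h)
    else if hi : Inv (par t) (rec (par t) (hrk t h)) then Classical.choose (h1 t h _ hi) else s0
  let F : T → σ := (measure rk).wf.fix step
  have hF : ∀ t, F t = step t fun y _ => F y := fun t => (measure rk).wf.fix_eq step t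
  have hInv : ∀ N t, rk t ≤ N → Inv t (F t) := by
    intro N
    induction N with
    | zero =>
      intro t ht
      by_cases h : root t
      · rw [hF t]
        simp only [step, h, dif_pos]
        exact Classical.choose_spec (h0 t h)
      · have := hrk t h
        omega
    | succ N ih =>
      intro t ht
      by_cases h : root t
      · rw [hF t]
        simp only [step, h, dif_pos]
        exact Classical.choose_spec (h0 t h)
      · have hlt := hrk t h
        have hi := ih (par t) (by omega)
        rw [hF t]
        simp only [step, h, hi, dif_pos, dif_neg, not_false_eq_true]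
        exact (Classical.choose_spec (h1 t h _ hi)).1
  refine ⟨F, fun t => hInv _ t le_rfl, fun t h => ?_⟩
  have hi := hInv _ (par t) le_rfl
  have := (Classical.choose_spec (h1 t h _ hi)).2
  have e : F t = Classical.choose (h1 t h _ hi) := by
    rw [hF t]
    simp only [step, h, hi, dif_pos, dif_neg, not_false_eq_true]
  rw [e]
  exact this

end Rec

section Slots

variable {ι : Type*} [DecidableEq ι] {L : ℕ}

/-- Extension of a slot assignment: the labels common to both sets keep their slots. -/
theorem exists_slot_step (hL : 0 < L) (a b : Finset ι) (hb : b.card ≤ L) (pos : ι → Fin L)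
    (hpos : Set.InjOn pos a) :
    ∃ pos' : ι → Fin L, Set.InjOn pos' b ∧ ∀ i ∈ b, i ∈ a → pos' i = pos i := by
  classical
  set s1 : Finset ι := b ∩ a with hs1
  set N : Finset ι := b \ a with hN
  set I : Finset (Fin L) := s1.image pos with hI
  have hIc : I.card = s1.card := Finset.card_image_of_injOn fun x hx y hy h =>
    hpos (by simp [hs1] at hx; exact hx.2) (by simp [hs1] at hy; exact hy.2) h
  have hsum : s1.card + N.card = b.card := by
    rw [hs1, hN]; exact Finset.card_inter_add_card_sdiff b a
  have hcard : N.card ≤ (Iᶜ : Finset (Fin L)).card := by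
    rw [Finset.card_compl, Fintype.card_fin, hIc]
    omega
  obtain ⟨e⟩ : Nonempty ({x // x ∈ N} ↪ {x // x ∈ (Iᶜ : Finset (Fin L))}) :=
    Function.Embedding.nonempty_of_card_le (by
      rw [Fintype.card_coe, Fintype.card_coe]; exact hcard)
  refine ⟨fun i => if i ∈ a then pos i else if h : i ∈ N then (e ⟨i, h⟩ : Fin L) else ⟨0, hL⟩,
    ?_, ?_⟩
  · intro x hx y hy hxy
    have hx' : x ∈ b := hx
    have hy' : y ∈ b := hy
    simp only at hxy
    by_cases hxa : x ∈ a
    · by_cases hya : y ∈ a
      · rw [if_pos hxa, if_pos hya] at hxy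
        exact hpos hxa hya hxy
      · have hyN : y ∈ N := by simp [hN, hy', hya]
        rw [if_pos hxa, if_neg hya, dif_pos hyN] at hxy
        exfalso
        have h1 : ((e ⟨y, hyN⟩ : {x // x ∈ (Iᶜ : Finset (Fin L))}) : Fin L) ∈ Iᶜ :=
          (e ⟨y, hyN⟩).2
        rw [← hxy, Finset.mem_compl] at h1
        exact h1 (Finset.mem_image_of_mem _ (by simp [hs1, hx', hxa]))
    · have hxN : x ∈ N := by simp [hN, hx', hxa]
      by_cases hya : y ∈ a
      · rw [if_neg hxa, if_pos hya, dif_pos hxN] at hxy
        exfalso
        have h1 : ((e ⟨x, hxN⟩ : {x // x ∈ (Iᶜ : Finset (Fin L))}) : Fin L) ∈ Iᶜ :=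
          (e ⟨x, hxN⟩).2
        rw [hxy, Finset.mem_compl] at h1
        exact h1 (Finset.mem_image_of_mem _ (by simp [hs1, hy', hya]))
      · have hyN : y ∈ N := by simp [hN, hy', hya]
        rw [if_neg hxa, if_neg hya, dif_pos hxN, dif_pos hyN] at hxy
        have h2 : e ⟨x, hxN⟩ = e ⟨y, hyN⟩ := Subtype.ext hxy
        have h3 := e.injective h2
        exact congrArg Subtype.val h3
  · intro i _ hia
    simp only [hia, if_true]

/-- SLOT ASSIGNMENT. Labels `alive t` of the nodes of a tree, at most `L` at every node, with
functions `f`; a label of a node which was not alive at the parent has a function vanishing on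
the adhesion. Then there are `L` slots at every node, filled with the functions of the alive
labels, such that in passing from the parent every slot keeps its function or gets one which
vanishes on the adhesion. -/
theorem exists_slots {T V : Type*} (par : T → T) (rk : T → ℕ) (root : T → Prop)
    (hrk : ∀ t, ¬ root t → rk (par t) < rk t) (hL : 0 < L)
    (alive : T → Finset ι) (hcard : ∀ t, (alive t).card ≤ L) (f : ι → V → ℝ)
    (A : T → Set V)
    (hnew : ∀ t, ¬ root t → ∀ i ∈ alive t, i ∉ alive (par t) → ∀ a ∈ A t, f i a = 0) :
    ∃ eta : T → Fin L → V → ℝ,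
      (∀ t j, (∃ i ∈ alive t, eta t j = f i) ∨ eta t j = 0) ∧
      (∀ t, ¬ root t → ∀ j, eta t j = eta (par t) j ∨ ∀ a ∈ A t, eta t j a = 0) ∧
      (∀ t, ∀ i ∈ alive t, ∃ j, eta t j = f i) := by
  classical
  obtain ⟨pos, hinj, hrel⟩ := tree_rec (σ := ι → Fin L) par rk root hrk
    (fun t p => Set.InjOn p (alive t))
    (fun t p p' => ∀ i ∈ alive t, i ∈ alive (par t) → p' i = p i)
    (fun t _ => by
      obtain ⟨p, hp, _⟩ := exists_slot_step hL ∅ (alive t) (hcard t) (fun _ => ⟨0, hL⟩)
        (by simp)
      exact ⟨p, hp⟩)
    (fun t _ p hp => exists_slot_step hL (alive (par t)) (alive t) (hcard t) p hp)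
  refine ⟨fun t j => if h : ∃ i ∈ alive t, pos t i = j then f (Classical.choose h) else 0,
    ?_, ?_, ?_⟩
  · intro t j
    by_cases h : ∃ i ∈ alive t, pos t i = j
    · left
      exact ⟨Classical.choose h, (Classical.choose_spec h).1, by simp only [dif_pos h]⟩
    · right
      simp only [dif_neg h]
  · intro t ht j
    by_cases h : ∃ i ∈ alive t, pos t i = j
    · have hs := Classical.choose_spec h
      by_cases hp : Classical.choose h ∈ alive (par t)
      · left
        have e1 : pos (par t) (Classical.choose h) = j := by
          rw [← hrel t ht _ hs.1 hp]; exact hs.2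
        have h' : ∃ i ∈ alive (par t), pos (par t) i = j := ⟨_, hp, e1⟩
        have hs' := Classical.choose_spec h'
        have e2 : Classical.choose h' = Classical.choose h :=
          hinj (par t) hs'.1 hp (hs'.2.trans e1.symm)
        simp only [dif_pos h, dif_pos h', e2]
      · right
        intro a ha
        simp only [dif_pos h]
        exact hnew t ht _ hs.1 hp a ha
    · right
      intro a _
      simp only [dif_neg h, Pi.zero_apply]
  · intro t i hi
    refine ⟨pos t i, ?_⟩
    have h : ∃ i' ∈ alive t, pos t i' = pos t i := ⟨i, hi, rfl⟩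
    have hs := Classical.choose_spec h
    have e : Classical.choose h = i := hinj t hs.1 hi hs.2
    simp only [dif_pos h, e]

end Slots

end Vale.Agent.P235.H991
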