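import Vale.Agent.P235.H991.Inj

/-!
Injection and anticoncentration in one coordinate of a family of grids.
-/

namespace Vale.Agent.P235.H991

open Finset

section

variable {C : Type*} [Fintype C] {L m : ℕ}

/-- Fubini for one coordinate. -/
theorem sum_split (j : Fin L) (F : C × (Fin L → Fin m) → ℝ) :
    ∑ a, F a = ∑ b : (C × ({i : Fin L // i ≠ j} → Fin m)) × Fin m,
      F (b.1.1, (Equiv.funSplitAt j (Fin m)).symm (b.2, b.1.2)) := by
  have h1 : ∑ a, F a = ∑ c, ∑ x, F (c, x) := Fintype.sum_prod_type _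
  have h2 : (∑ b : (C × ({i : Fin L // i ≠ j} → Fin m)) × Fin m,
      F (b.1.1, (Equiv.funSplitAt j (Fin m)).symm (b.2, b.1.2)))
      = ∑ c, ∑ r, ∑ y, F (c, (Equiv.funSplitAt j (Fin m)).symm (y, r)) := by
    rw [Fintype.sum_prod_type, Fintype.sum_prod_type]
  rw [h1, h2]
  refine Finset.sum_congr rfl fun c _ => ?_
  have h3 : (∑ r, ∑ y, F (c, (Equiv.funSplitAt j (Fin m)).symm (y, r)))
      = ∑ b : Fin m × ({i : Fin L // i ≠ j} → Fin m),
        F (c, (Equiv.funSplitAt j (Fin m)).symm b) := by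
    rw [Fintype.sum_prod_type, Finset.sum_comm]
  rw [h3]
  exact (Equiv.sum_comp (Equiv.funSplitAt j (Fin m)).symm fun x => F (c, x)).symm

theorem split_symm_self (j : Fin L) (y : Fin m) (r : {i : Fin L // i ≠ j} → Fin m) :
    (Equiv.funSplitAt j (Fin m)).symm (y, r) j = y := by
  simp [Equiv.funSplitAt]

theorem split_symm_update (j : Fin L) (y y' : Fin m) (r : {i : Fin L // i ≠ j} → Fin m) :
    (Equiv.funSplitAt j (Fin m)).symm (y, r)
      = Function.update ((Equiv.funSplitAt j (Fin m)).symm (y', r)) j y := by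
  funext i
  by_cases h : i = j
  · subst h
    simp [Equiv.funSplitAt]
  · simp [Equiv.funSplitAt, h]

/-- INJECTION in the coordinate `j`. -/
theorem inj_coord {w : C → ℝ} (hw : ∀ c, 0 ≤ w c) (hm : 0 < m) (j : Fin L)
    {X : C × (Fin L → Fin m) → ℝ} (hXj : ∀ c x y, X (c, Function.update x j y) = X (c, x))
    {d : ℝ} (hd : 0 ≤ d) (hX : Below (fun o : C × (Fin L → Fin m) => w o.1 * ((m : ℝ) ^ L)⁻¹) d X)
    {H : Set C} [DecidablePred (· ∈ H)] {b u : ℝ} (hH : ∀ c ∈ H, b ≤ w c) (hb : 0 ≤ b)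
    {xv : Fin m → ℝ} (hxv0 : ∑ y, xv y = 0)
    (hxv : ∀ y, |xv y| ≤ u) (hu0 : 0 ≤ u) (hu : u ≤ b * ((m : ℝ) ^ L)⁻¹ / 4)
    {e : ℝ} (he : |e| ≤ d) :
    Below (fun o : C × (Fin L → Fin m) => w o.1 * ((m : ℝ) ^ L)⁻¹) d
      (fun o => X o + xv (o.2 j) * (if o.1 ∈ H then e else 0)) := by
  have hm' : (0 : ℝ) < m := by exact_mod_cast hm
  have hmL : (0 : ℝ) < ((m : ℝ) ^ L)⁻¹ := by positivity
  let y0 : Fin m := ⟨0, hm⟩
  let Y : C × ({i : Fin L // i ≠ j} → Fin m) → ℝ :=
    fun a => X (a.1, (Equiv.funSplitAt j (Fin m)).symm (y0, a.2))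
  let W : C × ({i : Fin L // i ≠ j} → Fin m) → ℝ := fun a => w a.1 * (((m : ℝ) ^ L)⁻¹ * m)
  have hXY : ∀ c y r, X (c, (Equiv.funSplitAt j (Fin m)).symm (y, r)) = Y (c, r) := by
    intro c y r
    rw [split_symm_update j y y0 r, hXj]
  have hW : ∀ a, 0 ≤ W a := fun a => mul_nonneg (hw _) (by positivity)
  have hWv : ∀ a, W a * (m : ℝ)⁻¹ = w a.1 * ((m : ℝ) ^ L)⁻¹ := fun a => by
    simp only [W]
    field_simp
  have hYB : Below W d Y := by
    intro t
    refine le_trans (le_of_eq ?_) (hX t)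
    rw [sum_split j]
    conv_rhs => rw [Fintype.sum_prod_type]
    refine Finset.sum_congr rfl fun a _ => ?_
    have : ∀ y : Fin m, w a.1 * ((m : ℝ) ^ L)⁻¹ *
        |X (a.1, (Equiv.funSplitAt j (Fin m)).symm (y, a.2)) - t|
        = w a.1 * ((m : ℝ) ^ L)⁻¹ * |Y a - t| := fun y => by rw [hXY]
    simp only [this]
    rw [Finset.sum_const, Finset.card_univ, Fintype.card_fin, nsmul_eq_mul]
    simp only [W]
    ring
  have hmul : b * ((m : ℝ) ^ L)⁻¹ ≤ b * (((m : ℝ) ^ L)⁻¹ * m) := by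
    apply mul_le_mul_of_nonneg_left _ hb
    have h1 : (1 : ℝ) ≤ m := by exact_mod_cast hm
    nlinarith
  classical
  have hinj := inj_below (Ω := C × ({i : Fin L // i ≠ j} → Fin m)) (Γ := Fin m) (w := W) hW
    (v := fun _ => (m : ℝ)⁻¹) (fun _ => by positivity)
    (by rw [Finset.sum_const, Finset.card_univ, Fintype.card_fin, nsmul_eq_mul]
        exact mul_inv_cancel₀ hm'.ne')
    (xi := xv) (by rw [← Finset.mul_sum, hxv0, mul_zero])
    (u := u) (pmin := b * (((m : ℝ) ^ L)⁻¹ * m)) hxv hu0 (by linarith)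
    (H := {a | a.1 ∈ H})
    (fun a ha => mul_le_mul_of_nonneg_right (hH a.1 ha) (by positivity))
    hd hYB he
  intro t
  have h2 := hinj t
  rw [sum_split j]
  refine le_trans (le_of_eq ?_) h2
  refine Finset.sum_congr rfl fun a _ => ?_
  have e1 : (Equiv.funSplitAt j (Fin m)).symm (a.2, a.1.2) j = a.2 := split_symm_self _ _ _
  have e2 : X (a.1.1, (Equiv.funSplitAt j (Fin m)).symm (a.2, a.1.2)) = Y a.1 := hXY _ _ _
  have e3 : W a.1 * (m : ℝ)⁻¹ = w a.1.1 * ((m : ℝ) ^ L)⁻¹ := hWv _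
  simp only [Set.mem_setOf_eq, e1, e2, e3]

open Classical in
/-- ANTICONCENTRATION from the coordinate `j`. -/
theorem ac_coord {w : C → ℝ} (hw : ∀ c, 0 ≤ w c) (hw1 : ∑ c, w c = 1) (hm : 0 < m) (j : Fin L)
    {X : C × (Fin L → Fin m) → ℝ} (hXj : ∀ c x y, X (c, Function.update x j y) = X (c, x))
    {H : Set C} {xv : Fin m → ℝ} {sp e r : ℝ}
    (hsp : ∀ y y', y ≠ y' → sp ≤ |xv y - xv y'|) (hspe : 2 * r ≤ sp * |e|) :
    (∑ o : C × (Fin L → Fin m), if |X o + xv (o.2 j) * (if o.1 ∈ H then e else 0)| < r then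
        w o.1 * ((m : ℝ) ^ L)⁻¹ else 0)
      ≤ (∑ c, if c ∈ H then 0 else w c) + 1 / m := by
  have hm' : (0 : ℝ) < m := by exact_mod_cast hm
  rw [sum_split j]
  rw [Fintype.sum_prod_type]
  let y0 : Fin m := ⟨0, hm⟩
  have hXY : ∀ c y r, X (c, (Equiv.funSplitAt j (Fin m)).symm (y, r))
      = X (c, (Equiv.funSplitAt j (Fin m)).symm (y0, r)) := by
    intro c y r
    rw [split_symm_update j y y0 r, hXj]
  -- one row
  have hrow : ∀ a : C × ({i : Fin L // i ≠ j} → Fin m),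
      (∑ y : Fin m, if |X (a.1, (Equiv.funSplitAt j (Fin m)).symm (y, a.2))
          + xv ((Equiv.funSplitAt j (Fin m)).symm (y, a.2) j) * (if a.1 ∈ H then e else 0)| < r
          then w a.1 * ((m : ℝ) ^ L)⁻¹ else 0)
        ≤ (if a.1 ∈ H then 0 else w a.1 * (((m : ℝ) ^ L)⁻¹ * m)) + w a.1 * ((m : ℝ) ^ L)⁻¹ := by
    intro a
    have hwa : 0 ≤ w a.1 * ((m : ℝ) ^ L)⁻¹ := mul_nonneg (hw _) (by positivity)
    by_cases ha : a.1 ∈ H
    · simp only [ha, if_true, zero_add, split_symm_self]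
      set x0 := X (a.1, (Equiv.funSplitAt j (Fin m)).symm (y0, a.2)) with hx0
      have hcard : (Finset.univ.filter fun y : Fin m => |x0 + xv y * e| < r).card ≤ 1 := by
        rw [Finset.card_le_one]
        intro y hy y' hy'
        by_contra hne
        simp only [Finset.mem_filter, Finset.mem_univ, true_and] at hy hy'
        have h1 := hsp y y' hne
        have h2 : |(xv y - xv y') * e| < 2 * r := by
          have : (xv y - xv y') * e = (x0 + xv y * e) - (x0 + xv y' * e) := by ring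
          rw [this]
          have := abs_sub (x0 + xv y * e) (x0 + xv y' * e)
          linarith
        rw [abs_mul] at h2
        have h3 : sp * |e| ≤ |xv y - xv y'| * |e| :=
          mul_le_mul_of_nonneg_right h1 (abs_nonneg e)
        linarith
      have : ∀ y : Fin m, X (a.1, (Equiv.funSplitAt j (Fin m)).symm (y, a.2)) = x0 :=
        fun y => hXY _ _ _
      simp only [this]
      rw [← Finset.sum_filter, Finset.sum_const, nsmul_eq_mul]
      calc ((Finset.univ.filter fun y : Fin m => |x0 + xv y * e| < r).card : ℝ)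
            * (w a.1 * ((m : ℝ) ^ L)⁻¹)
          ≤ 1 * (w a.1 * ((m : ℝ) ^ L)⁻¹) :=
            mul_le_mul_of_nonneg_right (by exact_mod_cast hcard) hwa
        _ = _ := one_mul _
    · simp only [ha, if_false]
      calc _ ≤ ∑ _y : Fin m, w a.1 * ((m : ℝ) ^ L)⁻¹ :=
            Finset.sum_le_sum fun y _ => by split_ifs; exacts [le_rfl, hwa]
        _ = w a.1 * (((m : ℝ) ^ L)⁻¹ * m) := by
            rw [Finset.sum_const, Finset.card_univ, Fintype.card_fin, nsmul_eq_mul]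
            ring
        _ ≤ _ := by linarith
  refine (Finset.sum_le_sum fun a _ => hrow a).trans ?_
  rw [Finset.sum_add_distrib]
  -- count the remaining coordinates
  have hone : ∑ _r : ({i : Fin L // i ≠ j} → Fin m), (((m : ℝ) ^ L)⁻¹ * m) = 1 := by
    have h1 : ∑ _x : Fin L → Fin m, ((m : ℝ) ^ L)⁻¹ = 1 := by
      rw [Finset.sum_const, Finset.card_univ, Fintype.card_fun, Fintype.card_fin,
        Fintype.card_fin, nsmul_eq_mul]
      push_cast
      exact mul_inv_cancel₀ (by positivity)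
    rw [← h1, ← Equiv.sum_comp (Equiv.funSplitAt j (Fin m)).symm, Fintype.sum_prod_type,
      Finset.sum_comm]
    refine Finset.sum_congr rfl fun r _ => ?_
    rw [Finset.sum_const, Finset.card_univ, Fintype.card_fin, nsmul_eq_mul]
    ring
  have e1 : (∑ a : C × ({i : Fin L // i ≠ j} → Fin m),
      if a.1 ∈ H then 0 else w a.1 * (((m : ℝ) ^ L)⁻¹ * m)) = ∑ c, if c ∈ H then 0 else w c := by
    rw [Fintype.sum_prod_type]
    refine Finset.sum_congr rfl fun c _ => ?_
    by_cases hc : c ∈ H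
    · simp [hc]
    · simp only [hc, if_false]
      rw [← Finset.mul_sum, hone, mul_one]
  have e2 : (∑ a : C × ({i : Fin L // i ≠ j} → Fin m), w a.1 * ((m : ℝ) ^ L)⁻¹) = 1 / m := by
    rw [Fintype.sum_prod_type]
    have : ∀ c, ∑ _r : ({i : Fin L // i ≠ j} → Fin m), w c * ((m : ℝ) ^ L)⁻¹ = w c * (1 / m) := by
      intro c
      have h5 : ∀ _r : ({i : Fin L // i ≠ j} → Fin m), w c * ((m : ℝ) ^ L)⁻¹
          = w c * (1 / m) * (((m : ℝ) ^ L)⁻¹ * m) := fun _ => by field_simp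
      rw [Finset.sum_congr rfl fun r _ => h5 r, ← Finset.mul_sum, hone, mul_one]
    simp only [this]
    rw [← Finset.sum_mul, hw1, one_mul]
  rw [e1, e2]

end

end Vale.Agent.P235.H991
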