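import Mathlib

/-!
Injection lemma (L2) of the bounded treewidth theorem: a random variable whose absolute
moments about every point are below those of a uniform variable on the interval from -d to d
stays in this class when an independent centred perturbation of size at most a quarter of the
smallest atom is added on an event.
-/

namespace Vale.Agent.P235.H991

open Finset

/-- `hU d t` is the mean of the distance from `t` of a uniform variable on `[-d, d]`. -/
noncomputable def hU (d t : ℝ) : ℝ := |t| + (max 0 (d - |t|)) ^ 2 / (2 * d)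

theorem hU_zero (t : ℝ) : hU 0 t = |t| := by
  simp [hU]

theorem hU_of_le {d t : ℝ} (h : d ≤ |t|) : hU d t = |t| := by
  have : max 0 (d - |t|) = 0 := max_eq_left (by linarith)
  simp [hU, this]

theorem le_hU {d : ℝ} (hd : 0 ≤ d) (t : ℝ) : |t| ≤ hU d t := by
  unfold hU
  have : 0 ≤ (max 0 (d - |t|)) ^ 2 / (2 * d) := by positivity
  linarith

theorem hU_nonneg {d : ℝ} (hd : 0 ≤ d) (t : ℝ) : 0 ≤ hU d t :=
  (abs_nonneg t).trans (le_hU hd t)

theorem hU_at_zero {d : ℝ} (hd : 0 ≤ d) : hU d 0 = d / 2 := by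
  unfold hU
  simp only [abs_zero, sub_zero, max_eq_right hd, zero_add]
  rcases hd.eq_or_lt with h | h
  · simp [← h]
  · field_simp

theorem hU_neg (d t : ℝ) : hU d (-t) = hU d t := by
  simp [hU]

theorem hU_eq {d : ℝ} (hd : 0 < d) (t : ℝ) :
    hU d t = (t ^ 2 + d ^ 2) / (2 * d) - (max 0 (|t| - d)) ^ 2 / (2 * d) := by
  unfold hU
  have ht : t ^ 2 = |t| ^ 2 := (sq_abs t).symm
  rw [ht]
  rcases le_total |t| d with h | h
  · rw [max_eq_right (by linarith : (0 : ℝ) ≤ d - |t|),
      max_eq_left (by linarith : |t| - d ≤ (0 : ℝ))]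
    field_simp
    ring
  · rw [max_eq_left (by linarith : d - |t| ≤ (0 : ℝ)),
      max_eq_right (by linarith : (0 : ℝ) ≤ |t| - d)]
    field_simp
    ring

/-- Second differences of `hU d` are at most `s ^ 2 / d`. -/
theorem hU_second {d : ℝ} (hd : 0 < d) (t s : ℝ) :
    hU d (t + s) + hU d (t - s) ≤ 2 * hU d t + s ^ 2 / d := by
  have key : 2 * (max 0 (|t| - d)) ^ 2 ≤ (max 0 (|t + s| - d)) ^ 2 + (max 0 (|t - s| - d)) ^ 2 := by
    have hab : 2 * |t| ≤ |t + s| + |t - s| := by
      have := abs_add_le (t + s) (t - s)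
      have h2 : t + s + (t - s) = 2 * t := by ring
      rw [h2, abs_mul, abs_two] at this
      exact this
    have h0 : 0 ≤ max 0 (|t| - d) := le_max_left _ _
    have ha : 0 ≤ max 0 (|t + s| - d) := le_max_left _ _
    have hb : 0 ≤ max 0 (|t - s| - d) := le_max_left _ _
    have hm : 2 * max 0 (|t| - d) ≤ max 0 (|t + s| - d) + max 0 (|t - s| - d) := by
      rcases le_total (|t| - d) 0 with h | h
      · rw [max_eq_left h]; linarith
      · rw [max_eq_right h]
        have h1 := le_max_right 0 (|t + s| - d)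
        have h2 := le_max_right 0 (|t - s| - d)
        linarith
    nlinarith [sq_nonneg (max 0 (|t + s| - d) - max 0 (|t - s| - d)), mul_self_le_mul_self
      (by linarith : (0:ℝ) ≤ 2 * max 0 (|t| - d)) hm]
  rw [hU_eq hd, hU_eq hd, hU_eq hd]
  have hd2 : (0 : ℝ) < 2 * d := by linarith
  have e1 : (((t + s) ^ 2 + d ^ 2) / (2 * d) - (max 0 (|t + s| - d)) ^ 2 / (2 * d))
      + (((t - s) ^ 2 + d ^ 2) / (2 * d) - (max 0 (|t - s| - d)) ^ 2 / (2 * d))
      = (2 * t ^ 2 + 2 * s ^ 2 + 2 * d ^ 2
        - ((max 0 (|t + s| - d)) ^ 2 + (max 0 (|t - s| - d)) ^ 2)) / (2 * d) := by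
    field_simp
    ring
  have e2 : 2 * ((t ^ 2 + d ^ 2) / (2 * d) - (max 0 (|t| - d)) ^ 2 / (2 * d)) + s ^ 2 / d
      = (2 * t ^ 2 + 2 * s ^ 2 + 2 * d ^ 2 - 2 * (max 0 (|t| - d)) ^ 2) / (2 * d) := by
    field_simp
    ring
  rw [e1, e2]
  exact div_le_div_of_nonneg_right (by linarith) hd2.le

/-- Second differences of the absolute value at a point close to the kink. -/
theorem abs_second {x t s b : ℝ} (hb : |x - t| < b) :
    2 * |x - t| + 2 * (s - b) ≤ |x - (t + s)| + |x - (t - s)| := by
  have h1 : s - (x - t) ≤ |x - (t + s)| := by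
    have := neg_abs_le (x - (t + s)); linarith
  have h2 : s + (x - t) ≤ |x - (t - s)| := by
    have := le_abs_self (x - (t - s)); linarith
  linarith

theorem abs_second' (x t s : ℝ) :
    2 * |x - t| ≤ |x - (t + s)| + |x - (t - s)| := by
  have := abs_add_le (x - (t + s)) (x - (t - s))
  have h2 : x - (t + s) + (x - (t - s)) = 2 * (x - t) := by ring
  rw [h2, abs_mul, abs_two] at this
  exact this

section

variable {Ω Γ : Type*} [Fintype Ω] [Fintype Γ]

/-- All absolute moments about points of the variable `X` are below the ones of a uniform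
variable on `[-d, d]`. -/
def Below (w : Ω → ℝ) (d : ℝ) (X : Ω → ℝ) : Prop :=
  ∀ t : ℝ, ∑ o, w o * |X o - t| ≤ hU d t

open Classical in
/-- The slack of a variable in the class at a point near which it has mass `q`. -/
theorem slack {w : Ω → ℝ} (hw : ∀ o, 0 ≤ w o) {d : ℝ} (hd : 0 < d) {X : Ω → ℝ}
    (hX : Below w d X) (t b : ℝ) (hb : 0 ≤ b)
    (hbq : b ≤ (∑ o, if |X o - t| < b then w o else 0) * d / 4) :
    (∑ o, w o * |X o - t|) + b * (∑ o, if |X o - t| < b then w o else 0) ≤ hU d t := by
  set q : ℝ := ∑ o, if |X o - t| < b then w o else 0 with hq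
  have hq0 : 0 ≤ q := Finset.sum_nonneg fun o _ => by split_ifs; exacts [hw o, le_rfl]
  set s : ℝ := q * d with hs
  have hsb : b ≤ s := by
    have : q * d / 4 ≤ q * d := by
      have : 0 ≤ q * d := mul_nonneg hq0 hd.le
      linarith
    linarith
  have h1 := hX (t + s)
  have h2 := hX (t - s)
  have h3 := hU_second hd t s
  have h4 : 2 * (∑ o, w o * |X o - t|) + 2 * (s - b) * q
      ≤ (∑ o, w o * |X o - (t + s)|) + ∑ o, w o * |X o - (t - s)| := by
    rw [hq, Finset.mul_sum, Finset.mul_sum, ← Finset.sum_add_distrib, ← Finset.sum_add_distrib]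
    refine Finset.sum_le_sum fun o _ => ?_
    split_ifs with h
    · have := mul_le_mul_of_nonneg_left (abs_second (s := s) h) (hw o)
      linarith [this, mul_comm (w o) (2 * (s - b))]
    · have := mul_le_mul_of_nonneg_left (abs_second' (X o) t s) (hw o)
      linarith
  have h5 : s ^ 2 / d = q * q * d := by
    rw [hs]; field_simp
  have h6 : 2 * (∑ o, w o * |X o - t|) + 2 * (s - b) * q ≤ 2 * hU d t + q * q * d := by
    rw [← h5]; linarith
  have h7 : b * q ≤ q * d / 4 * q := mul_le_mul_of_nonneg_right hbq hq0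
  rw [hs] at h6
  nlinarith [h6, h7]

open Classical in
/-- INJECTION, one increment: adding an independent centred perturbation of size at most
a quarter of the atoms of the event `H` keeps the class. -/
theorem inj_below {w : Ω → ℝ} (hw : ∀ o, 0 ≤ w o) {v : Γ → ℝ} (hv : ∀ c, 0 ≤ v c)
    (hv1 : ∑ c, v c = 1) {xi : Γ → ℝ} (hxi0 : ∑ c, v c * xi c = 0) {u pmin : ℝ}
    (hxi : ∀ c, |xi c| ≤ u) (hu : 0 ≤ u) (hup : u ≤ pmin / 4) {H : Set Ω}
    (hH : ∀ o ∈ H, pmin ≤ w o) {d : ℝ} (hd : 0 ≤ d) {X : Ω → ℝ} (hX : Below w d X)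
    {e : ℝ} (he : |e| ≤ d) :
    Below (fun a : Ω × Γ => w a.1 * v a.2) d
      (fun a => X a.1 + xi a.2 * (if a.1 ∈ H then e else 0)) := by
  intro t
  -- mean over the perturbation at one atom
  have hone : ∀ o, ∑ c, v c * |X o + xi c * (if o ∈ H then e else 0) - t|
      ≤ |X o - t| + (if o ∈ H ∧ |X o - t| < u * |e| then u * |e| else 0) := by
    intro o
    by_cases hoH : o ∈ H
    · simp only [hoH, if_true, true_and]
      have hsz : ∀ c, |xi c * e| ≤ u * |e| := fun c => by
        rw [abs_mul]; exact mul_le_mul_of_nonneg_right (hxi c) (abs_nonneg e)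
      split_ifs with hlt
      · calc ∑ c, v c * |X o + xi c * e - t| ≤ ∑ c, v c * (|X o - t| + u * |e|) := by
              refine Finset.sum_le_sum fun c _ => mul_le_mul_of_nonneg_left ?_ (hv c)
              have : X o + xi c * e - t = (X o - t) + xi c * e := by ring
              rw [this]
              exact (abs_add_le _ _).trans (by linarith [hsz c])
          _ = |X o - t| + u * |e| := by rw [← Finset.sum_mul, hv1, one_mul]
      · rw [add_zero]
        have hge : u * |e| ≤ |X o - t| := not_lt.mp hlt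
        have hsum : ∑ c, v c * (xi c * e) = 0 := by
          have : ∀ c, v c * (xi c * e) = v c * xi c * e := fun c => by ring
          simp_rw [this]
          rw [← Finset.sum_mul, hxi0, zero_mul]
        apply le_of_eq
        rcases le_total 0 (X o - t) with hs | hs
        · rw [abs_of_nonneg hs] at hge ⊢
          have : ∀ c, |X o + xi c * e - t| = (X o - t) + xi c * e := fun c => by
            have h1 := neg_le_of_abs_le (hsz c)
            rw [show X o + xi c * e - t = (X o - t) + xi c * e by ring]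
            exact abs_of_nonneg (by linarith)
          simp_rw [this, mul_add]
          rw [Finset.sum_add_distrib, hsum, ← Finset.sum_mul, hv1]
          ring
        · rw [abs_of_nonpos hs] at hge ⊢
          have : ∀ c, |X o + xi c * e - t| = -(X o - t) - xi c * e := fun c => by
            have h1 := le_of_abs_le (hsz c)
            rw [show X o + xi c * e - t = (X o - t) + xi c * e by ring]
            rw [abs_of_nonpos (by linarith)]
            ring
          simp_rw [this, mul_sub]
          rw [Finset.sum_sub_distrib, hsum, ← Finset.sum_mul, hv1]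
          ring
    · simp only [hoH, if_false, false_and, mul_zero, add_zero]
      rw [← Finset.sum_mul, hv1, one_mul]
  have hsum : ∑ a : Ω × Γ, w a.1 * v a.2 * |X a.1 + xi a.2 * (if a.1 ∈ H then e else 0) - t|
      ≤ (∑ o, w o * |X o - t|)
        + u * |e| * ∑ o, (if o ∈ H ∧ |X o - t| < u * |e| then w o else 0) := by
    rw [Fintype.sum_prod_type, Finset.mul_sum, ← Finset.sum_add_distrib]
    refine Finset.sum_le_sum fun o _ => ?_
    have h1 := mul_le_mul_of_nonneg_left (hone o) (hw o)
    calc ∑ c, w o * v c * |X o + xi c * (if o ∈ H then e else 0) - t|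
        = w o * ∑ c, v c * |X o + xi c * (if o ∈ H then e else 0) - t| := by
          rw [Finset.mul_sum]; exact Finset.sum_congr rfl fun c _ => by ring
      _ ≤ _ := h1
      _ = _ := by split_ifs <;> ring
  refine hsum.trans ?_
  set Q : ℝ := ∑ o, (if o ∈ H ∧ |X o - t| < u * |e| then w o else 0) with hQ
  set q : ℝ := ∑ o, (if |X o - t| < u * |e| then w o else 0) with hq
  have hb : 0 ≤ u * |e| := mul_nonneg hu (abs_nonneg e)
  have hQq : Q ≤ q := Finset.sum_le_sum fun o _ => by
    by_cases h1 : |X o - t| < u * |e|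
    · by_cases h2 : o ∈ H
      · simp [h1, h2]
      · simp [h1, h2, hw o]
    · simp [h1]
  by_cases hex : ∃ o, o ∈ H ∧ |X o - t| < u * |e|
  · obtain ⟨o, ho, hot⟩ := hex
    have hpq : pmin ≤ q := by
      refine (hH o ho).trans ?_
      have := Finset.single_le_sum (f := fun o => if |X o - t| < u * |e| then w o else 0)
        (fun i _ => by split_ifs; exacts [hw i, le_rfl]) (Finset.mem_univ o)
      simpa [hot] using this
    have hd0 : 0 < d := by
      rcases hd.eq_or_lt with h | h
      · exfalso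
        rw [← h] at he
        have : |e| = 0 := le_antisymm he (abs_nonneg e)
        rw [this, mul_zero] at hot
        exact absurd hot (not_lt.mpr (abs_nonneg _))
      · exact h
    have hbq : u * |e| ≤ q * d / 4 := by
      have h1 : u * |e| ≤ pmin / 4 * d :=
        mul_le_mul hup he (abs_nonneg e) (hu.trans hup)
      have h2 : pmin / 4 * d ≤ q / 4 * d :=
        mul_le_mul_of_nonneg_right (by linarith) hd
      linarith
    have hs := slack hw hd0 hX t (u * |e|) hb hbq
    have : u * |e| * Q ≤ u * |e| * q := mul_le_mul_of_nonneg_left hQq hb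
    linarith
  · have hQ0 : Q = 0 := Finset.sum_eq_zero fun o _ => by
      rw [if_neg]
      intro h
      exact hex ⟨o, h⟩
    rw [hQ0, mul_zero, add_zero]
    exact hX t

/-- JENSEN: passing to cell averages keeps the class. `f` is the map to the cells. -/
theorem below_cell {Ω' : Type*} [Fintype Ω'] [DecidableEq Ω'] {w : Ω → ℝ} (hw : ∀ o, 0 ≤ w o)
    (f : Ω → Ω') {w' : Ω' → ℝ} (hw' : ∀ c, w' c = ∑ o, if f o = c then w o else 0)
    {d : ℝ} {X : Ω → ℝ} (hX : Below w d X) {X' : Ω' → ℝ}
    (hX' : ∀ c, w' c * X' c = ∑ o, if f o = c then w o * X o else 0) :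
    Below w' d X' := by
  intro t
  refine le_trans ?_ (hX t)
  have h1 : ∀ c, w' c * |X' c - t| ≤ ∑ o, if f o = c then w o * |X o - t| else 0 := by
    intro c
    have hc : 0 ≤ w' c := by
      rw [hw']; exact Finset.sum_nonneg fun o _ => by split_ifs; exacts [hw o, le_rfl]
    have h2 : w' c * (X' c - t) = ∑ o, if f o = c then w o * (X o - t) else 0 := by
      rw [mul_sub, hX', hw', Finset.sum_mul, ← Finset.sum_sub_distrib]
      refine Finset.sum_congr rfl fun o _ => ?_
      split_ifs <;> ring
    calc w' c * |X' c - t| = |w' c * (X' c - t)| := by rw [abs_mul, abs_of_nonneg hc]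
      _ = |∑ o, if f o = c then w o * (X o - t) else 0| := by rw [h2]
      _ ≤ ∑ o, |if f o = c then w o * (X o - t) else 0| := Finset.abs_sum_le_sum_abs _ _
      _ = _ := by
        refine Finset.sum_congr rfl fun o _ => ?_
        split_ifs
        · rw [abs_mul, abs_of_nonneg (hw o)]
        · exact abs_zero
  calc ∑ c, w' c * |X' c - t| ≤ ∑ c, ∑ o, (if f o = c then w o * |X o - t| else 0) :=
        Finset.sum_le_sum fun c _ => h1 c
    _ = ∑ o, ∑ c, (if f o = c then w o * |X o - t| else 0) := Finset.sum_comm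
    _ = ∑ o, w o * |X o - t| := by
        refine Finset.sum_congr rfl fun o _ => ?_
        rw [Finset.sum_ite_eq]
        simp

/-- The class bounds the variable itself. -/
theorem Below.abs_le {w : Ω → ℝ} (hw : ∀ o, 0 ≤ w o) (hw1 : ∑ o, w o = 1) {d : ℝ} (hd : 0 ≤ d)
    {X : Ω → ℝ} (hX : Below w d X) {o : Ω} (ho : 0 < w o) : |X o| ≤ d := by
  -- mean zero first, then evaluate at `t = ± d`
  have hpos := hX d
  have hneg := hX (-d)
  rw [hU_neg, hU_of_le (le_abs_self d), abs_of_nonneg hd] at hneg
  rw [hU_of_le (le_abs_self d), abs_of_nonneg hd] at hpos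
  have hsum : ∑ o, w o * (|X o - d| + |X o - -d| - 2 * d) ≤ 0 := by
    have : ∀ o, w o * (|X o - d| + |X o - -d| - 2 * d)
        = w o * |X o - d| + w o * |X o - -d| - w o * (2 * d) := fun o => by ring
    simp_rw [this]
    rw [Finset.sum_sub_distrib, Finset.sum_add_distrib, ← Finset.sum_mul, hw1]
    linarith
  have hnn : ∀ o, 0 ≤ |X o - d| + |X o - -d| - 2 * d := fun o => by
    have h1 := neg_abs_le (X o - d)
    have h2 := le_abs_self (X o - -d)
    linarith
  have hle : w o * (|X o - d| + |X o - -d| - 2 * d) ≤ 0 := by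
    refine le_trans ?_ hsum
    exact Finset.single_le_sum
      (f := fun o => w o * (|X o - d| + |X o - -d| - 2 * d))
      (fun i _ => mul_nonneg (hw i) (hnn i)) (Finset.mem_univ o)
  have hz : |X o - d| + |X o - -d| - 2 * d ≤ 0 := by
    by_contra hc
    exact absurd hle (not_le.mpr (mul_pos ho (not_le.mp hc)))
  rw [_root_.abs_le]
  constructor
  · have h1 := le_abs_self (X o - -d)
    by_contra hc
    have h2 : |X o - d| = d - X o := by rw [abs_of_nonpos (by linarith)]; ring
    have h3 : |X o - -d| = -d - X o := by rw [abs_of_nonpos (by linarith)]; ring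
    linarith
  · by_contra hc
    have h2 : |X o - d| = X o - d := abs_of_nonneg (by linarith)
    have h3 : |X o - -d| = X o + d := by rw [abs_of_nonneg (by linarith)]; ring
    linarith

theorem Below.mean_abs {w : Ω → ℝ} {d : ℝ} (hd : 0 ≤ d) {X : Ω → ℝ} (hX : Below w d X) :
    ∑ o, w o * |X o| ≤ d / 2 := by
  have := hX 0
  rw [hU_at_zero hd] at this
  simpa using this

end

/-! The class for random functions. -/

section

variable {Ω Γ V : Type*} [Fintype Ω] [Fintype Γ]

/-- The class DD: all increments of the random function `g` are below uniform variables. -/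
def DD (w : Ω → ℝ) (dist : V → V → ℝ) (g : Ω → V → ℝ) : Prop :=
  ∀ p q, Below w (dist p q) fun o => g o p - g o q

/-- L2 (INJECTION). -/
theorem DD.inj {w : Ω → ℝ} (hw : ∀ o, 0 ≤ w o) {v : Γ → ℝ} (hv : ∀ c, 0 ≤ v c)
    (hv1 : ∑ c, v c = 1) {xi : Γ → ℝ} (hxi0 : ∑ c, v c * xi c = 0) {u pmin : ℝ}
    (hxi : ∀ c, |xi c| ≤ u) (hu : 0 ≤ u) (hup : u ≤ pmin / 4) {H : Set Ω}
    [DecidablePred (· ∈ H)] (hH : ∀ o ∈ H, pmin ≤ w o) {dist : V → V → ℝ}
    {g : Ω → V → ℝ} (hg : DD w dist g)
    {eta : V → ℝ} (he : ∀ p q, |eta p - eta q| ≤ dist p q) :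
    DD (fun a : Ω × Γ => w a.1 * v a.2) dist
      (fun a p => g a.1 p + xi a.2 * (if a.1 ∈ H then eta p else 0)) := by
  intro p q
  have hd : 0 ≤ dist p q := (abs_nonneg _).trans (he p q)
  have h := inj_below hw hv hv1 hxi0 hxi hu hup hH hd (hg p q) (he p q)
  intro t
  have h2 := h t
  refine le_trans (le_of_eq ?_) h2
  refine Finset.sum_congr rfl fun a _ => ?_
  congr 2
  by_cases ha : a.1 ∈ H
  · simp only [ha, if_true]; ring
  · simp only [ha, if_false]; ring

/-- L1 (JENSEN). -/
theorem DD.cell {Ω' : Type*} [Fintype Ω'] [DecidableEq Ω'] {w : Ω → ℝ} (hw : ∀ o, 0 ≤ w o)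
    (f : Ω → Ω') {w' : Ω' → ℝ} (hw' : ∀ c, w' c = ∑ o, if f o = c then w o else 0)
    {dist : V → V → ℝ} {g : Ω → V → ℝ} (hg : DD w dist g) {g' : Ω' → V → ℝ}
    (hg' : ∀ c p, w' c * g' c p = ∑ o, if f o = c then w o * g o p else 0) :
    DD w' dist g' := by
  intro p q
  refine below_cell hw f hw' (hg p q) fun c => ?_
  rw [mul_sub, hg', hg', ← Finset.sum_sub_distrib]
  refine Finset.sum_congr rfl fun o _ => ?_
  split_ifs <;> ring

end

end Vale.Agent.P235.H991
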