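import Vale.Agent.P235.H991.Inj

/-!
The process (section 3): states with a fixed finite probability space, reset and injection.
-/

namespace Vale.Agent.P235.H991

open Finset

section

variable {k L m : ℕ} {V : Type*}

/-- A cell: for all values of all grids the weak order on the enumerated adhesion, and the
indicators of the events of the slots. -/
abbrev Cell (k L m : ℕ) := ((Fin L → Fin m) → Fin k → Fin k → Bool) × (Fin L → Bool)

/-- The probability space of every node: a cell and the values of the grids of all slots. -/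
abbrev Om (k L m : ℕ) := Cell k L m × (Fin L → Fin m)

/-- A state: law of the cells, base functions, events and functions of the slots. -/
structure St (k L m : ℕ) (V : Type*) where
  w : Cell k L m → ℝ
  G : Cell k L m → V → ℝ
  H : Fin L → Cell k L m → Bool
  eta : Fin L → V → ℝ

/-- The law of the space of a state. -/
noncomputable def St.P (s : St k L m V) (o : Om k L m) : ℝ := s.w o.1 * ((m : ℝ) ^ L)⁻¹

/-- The random function of a state. -/
noncomputable def St.g (s : St k L m V) (xv : Fin m → ℝ) (o : Om k L m) (p : V) : ℝ :=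
  s.G o.1 p + ∑ j, xv (o.2 j) * (if s.H j o.1 then s.eta j p else 0)

/-- The first argument on `S`, the second one elsewhere. -/
def mix (S : Finset (Fin L)) (x y : Fin L → Fin m) : Fin L → Fin m :=
  fun j => if j ∈ S then x j else y j

theorem mix_of_mem {S : Finset (Fin L)} {j : Fin L} (h : j ∈ S) (x y : Fin L → Fin m) :
    mix S x y j = x j := by simp [mix, h]

theorem mix_of_notMem {S : Finset (Fin L)} {j : Fin L} (h : j ∉ S) (x y : Fin L → Fin m) :
    mix S x y j = y j := by simp [mix, h]

theorem mix_mix (S : Finset (Fin L)) (x y z : Fin L → Fin m) :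
    mix S (mix S x y) z = mix S x z := by
  funext j
  by_cases h : j ∈ S <;> simp [mix, h]

theorem mix_back (S : Finset (Fin L)) (x z : Fin L → Fin m) :
    mix S x (mix S z x) = x := by
  funext j
  by_cases h : j ∈ S <;> simp [mix, h]

/-- Exchange the coordinates outside `S`. -/
def swapE (S : Finset (Fin L)) :
    ((Fin L → Fin m) × (Fin L → Fin m)) ≃ ((Fin L → Fin m) × (Fin L → Fin m)) where
  toFun a := (mix S a.1 a.2, mix S a.2 a.1)
  invFun a := (mix S a.1 a.2, mix S a.2 a.1)
  left_inv a := by
    ext j <;> by_cases h : j ∈ S <;> simp [mix, h]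
  right_inv a := by
    ext j <;> by_cases h : j ∈ S <;> simp [mix, h]

open Classical in
/-- The new cell of a point: all order types on the new adhesion when the grids outside `S`
run through all values, and the indicators of the events. -/
noncomputable def St.sig (s : St k L m V) (xv : Fin m → ℝ) (A : Fin k → V)
    (S : Finset (Fin L)) (o : Om k L m) : Cell k L m :=
  (fun y i j => decide (s.g xv (o.1, mix S o.2 y) (A i) ≤ s.g xv (o.1, mix S o.2 y) (A j)),
    fun j => s.H j o.1)

theorem St.sig_mix (s : St k L m V) (xv : Fin m → ℝ) (A : Fin k → V) (S : Finset (Fin L))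
    (c : Cell k L m) (x y : Fin L → Fin m) :
    s.sig xv A S (c, mix S x y) = s.sig xv A S (c, x) := by
  simp only [St.sig, mix_mix]

/-- The base part of the function: the grids of `S` are moved into the base. -/
noncomputable def St.base (s : St k L m V) (xv : Fin m → ℝ) (S : Finset (Fin L))
    (o : Om k L m) (p : V) : ℝ :=
  s.G o.1 p + ∑ j ∈ S, xv (o.2 j) * (if s.H j o.1 then s.eta j p else 0)

theorem St.base_mix (s : St k L m V) (xv : Fin m → ℝ) (S : Finset (Fin L))
    (c : Cell k L m) (x y : Fin L → Fin m) (p : V) :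
    s.base xv S (c, mix S x y) p = s.base xv S (c, x) p := by
  simp only [St.base]
  congr 1
  refine Finset.sum_congr rfl fun j hj => ?_
  rw [mix_of_mem hj]

theorem St.g_eq_base (s : St k L m V) (xv : Fin m → ℝ) (S : Finset (Fin L))
    (o : Om k L m) (p : V) :
    s.g xv o p = s.base xv S o p
      + ∑ j ∈ Sᶜ, xv (o.2 j) * (if s.H j o.1 then s.eta j p else 0) := by
  unfold St.g St.base
  rw [← Finset.sum_add_sum_compl S]
  ring

/-- The law of the new cells. -/
noncomputable def St.nw (s : St k L m V) (xv : Fin m → ℝ) (A : Fin k → V)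
    (S : Finset (Fin L)) (c : Cell k L m) : ℝ :=
  ∑ o, if s.sig xv A S o = c then s.P o else 0

/-- The new base functions: cell averages. -/
noncomputable def St.nG (s : St k L m V) (xv : Fin m → ℝ) (A : Fin k → V)
    (S : Finset (Fin L)) (c : Cell k L m) (p : V) : ℝ :=
  (∑ o, if s.sig xv A S o = c then s.P o * s.base xv S o p else 0) / s.nw xv A S c

open Classical in
/-- The next state: reset on the adhesion `A`, the slots of `S` get the new functions `ne`
on the event of the cells of mass at least `bet`. -/
noncomputable def St.next (s : St k L m V) (xv : Fin m → ℝ) (A : Fin k → V)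
    (S : Finset (Fin L)) (bet : ℝ) (ne : Fin L → V → ℝ) : St k L m V where
  w := s.nw xv A S
  G := s.nG xv A S
  H := fun j c => if j ∈ S then decide (bet ≤ s.nw xv A S c) else c.2 j
  eta := fun j => if j ∈ S then ne j else s.eta j

theorem St.P_nonneg {s : St k L m V} (hw : ∀ c, 0 ≤ s.w c) (o : Om k L m) : 0 ≤ s.P o :=
  mul_nonneg (hw _) (by positivity)

theorem sum_unif (hm : 0 < m) : ∑ _x : Fin L → Fin m, ((m : ℝ) ^ L)⁻¹ = 1 := by
  rw [Finset.sum_const, Finset.card_univ, Fintype.card_fun, Fintype.card_fin, Fintype.card_fin,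
    nsmul_eq_mul]
  push_cast
  have : (m : ℝ) ^ L ≠ 0 := by
    have : (0:ℝ) < m := by exact_mod_cast hm
    positivity
  exact mul_inv_cancel₀ this

theorem St.sum_P {s : St k L m V} (hm : 0 < m) (h1 : ∑ c, s.w c = 1) : ∑ o, s.P o = 1 := by
  unfold St.P
  rw [Fintype.sum_prod_type]
  simp only
  have : ∀ c, ∑ _x : Fin L → Fin m, s.w c * ((m : ℝ) ^ L)⁻¹ = s.w c := fun c => by
    rw [← Finset.mul_sum, sum_unif hm, mul_one]
  simp_rw [this]
  exact h1

theorem St.nw_nonneg {s : St k L m V} (hw : ∀ c, 0 ≤ s.w c) (xv : Fin m → ℝ) (A : Fin k → V)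
    (S : Finset (Fin L)) (c : Cell k L m) : 0 ≤ s.nw xv A S c :=
  Finset.sum_nonneg fun o _ => by split_ifs; exacts [St.P_nonneg hw o, le_rfl]

theorem St.sum_nw {s : St k L m V} (hm : 0 < m) (h1 : ∑ c, s.w c = 1) (xv : Fin m → ℝ)
    (A : Fin k → V) (S : Finset (Fin L)) : ∑ c, s.nw xv A S c = 1 := by
  classical
  unfold St.nw
  rw [Finset.sum_comm]
  have : ∀ o : Om k L m, ∑ c, (if s.sig xv A S o = c then s.P o else 0) = s.P o := fun o => by
    rw [Finset.sum_ite_eq]; simp
  simp_rw [this]
  exact St.sum_P hm h1

/-- The cell average of the base: product form. -/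
theorem St.nw_mul_nG {s : St k L m V} (hw : ∀ c, 0 ≤ s.w c) (xv : Fin m → ℝ) (A : Fin k → V)
    (S : Finset (Fin L)) (c : Cell k L m) (p : V) :
    s.nw xv A S c * s.nG xv A S c p
      = ∑ o, if s.sig xv A S o = c then s.P o * s.base xv S o p else 0 := by
  classical
  unfold St.nG
  by_cases h : s.nw xv A S c = 0
  · rw [h, zero_mul]
    symm
    apply Finset.sum_eq_zero
    intro o _
    split_ifs with ho
    · have hz : ∀ o, (if s.sig xv A S o = c then s.P o else 0) = 0 := by
        intro o
        have := (Finset.sum_eq_zero_iff_of_nonneg (s := Finset.univ)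
          (f := fun o => if s.sig xv A S o = c then s.P o else 0)
          (fun o _ => by split_ifs; exacts [St.P_nonneg hw o, le_rfl])).mp
          (by unfold St.nw at h; exact h) o (Finset.mem_univ o)
        exact this
      have := hz o
      rw [if_pos ho] at this
      rw [this, zero_mul]
    · rfl
  · rw [mul_div_cancel₀ _ h]

/-- The transition: from a point and fresh grid values to the point of the next node. -/
noncomputable def St.fwd (s : St k L m V) (xv : Fin m → ℝ) (A : Fin k → V)
    (S : Finset (Fin L)) (a : Om k L m × (Fin L → Fin m)) : Om k L m :=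
  (s.sig xv A S a.1, mix S a.2 a.1.2)

/-- Integration over a fibre of the transition: the values outside `S` are frozen, the base
does not see them. -/
theorem St.sum_fwd (s : St k L m V) (xv : Fin m → ℝ) (A : Fin k → V)
    (S : Finset (Fin L)) (o' : Om k L m)
    (F : Cell k L m → (Fin L → Fin m) → (Fin L → Fin m) → ℝ)
    (hF : ∀ c x y z, F c (mix S x y) z = F c x z) :
    (∑ a : Om k L m × (Fin L → Fin m), if s.fwd xv A S a = o' then
        F a.1.1 a.1.2 (mix S a.2 a.1.2) else 0)
      = ∑ o : Om k L m, if s.sig xv A S o = o'.1 then F o.1 o.2 o'.2 else 0 := by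
  have hL : (∑ a : Om k L m × (Fin L → Fin m), if s.fwd xv A S a = o' then
        F a.1.1 a.1.2 (mix S a.2 a.1.2) else 0)
      = ∑ c : Cell k L m, ∑ x : Fin L → Fin m, ∑ z : Fin L → Fin m,
        if s.fwd xv A S ((c, x), z) = o' then F c x (mix S z x) else 0 := by
    rw [Fintype.sum_prod_type, Fintype.sum_prod_type]
  have hR : (∑ o : Om k L m, if s.sig xv A S o = o'.1 then F o.1 o.2 o'.2 else 0)
      = ∑ c : Cell k L m, ∑ x : Fin L → Fin m,
        if s.sig xv A S (c, x) = o'.1 then F c x o'.2 else 0 := by
    rw [Fintype.sum_prod_type]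
  rw [hL, hR]
  refine Finset.sum_congr rfl fun c _ => ?_
  have h0 : (∑ x : Fin L → Fin m, ∑ z : Fin L → Fin m,
      if s.fwd xv A S ((c, x), z) = o' then F c x (mix S z x) else 0)
      = ∑ a : (Fin L → Fin m) × (Fin L → Fin m),
        if s.fwd xv A S ((c, a.1), a.2) = o' then F c a.1 (mix S a.2 a.1) else 0 := by
    rw [Fintype.sum_prod_type]
  refine h0.trans ?_
  rw [← Equiv.sum_comp (swapE S)]
  have h1 : ∀ a : (Fin L → Fin m) × (Fin L → Fin m),
      (if s.fwd xv A S ((c, (swapE S a).1), (swapE S a).2) = o' then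
        F c (swapE S a).1 (mix S (swapE S a).2 (swapE S a).1) else 0)
      = if a.2 = o'.2 then (if s.sig xv A S (c, a.1) = o'.1 then F c a.1 o'.2 else 0) else 0 := by
    intro a
    have e1 : mix S (mix S a.2 a.1) (mix S a.1 a.2) = a.2 := by
      funext j
      by_cases h : j ∈ S <;> simp [mix, h]
    have e2 : s.fwd xv A S ((c, (swapE S a).1), (swapE S a).2) = (s.sig xv A S (c, a.1), a.2) := by
      simp only [St.fwd, swapE, Equiv.coe_fn_mk, St.sig_mix]
      rw [e1]
    rw [e2]
    simp only [swapE, Equiv.coe_fn_mk, hF]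
    rw [e1]
    by_cases h2 : a.2 = o'.2
    · by_cases h3 : s.sig xv A S (c, a.1) = o'.1
      · have : (s.sig xv A S (c, a.1), a.2) = o' := Prod.ext h3 h2
        rw [if_pos this, if_pos h2, if_pos h3, h2]
      · have : (s.sig xv A S (c, a.1), a.2) ≠ o' := fun h => h3 (by rw [← h])
        rw [if_neg this, if_pos h2, if_neg h3]
    · have : (s.sig xv A S (c, a.1), a.2) ≠ o' := fun h => h2 (by rw [← h])
      rw [if_neg this, if_neg h2]
  rw [Finset.sum_congr rfl fun a _ => h1 a, Fintype.sum_prod_type]
  refine Finset.sum_congr rfl fun x _ => ?_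
  simp

end

end Vale.Agent.P235.H991
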